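import Vale.Agent.P126.Prob

/-! Graded certificates: the conflict lemma and the naming lemma. -/

namespace Vale.Agent.P126

open Classical

section
variable {Λ : Type*} [Fintype Λ] [DecidableEq Λ] {g ρ : ℕ} [NeZero ρ]

lemma bad {J : Type*} [Fintype J] (w : J → ℝ) (hw : ∀ j, 0 ≤ w j) (hw1 : ∑ j, w j ≤ 1)
    (B : Finset J) (K : J → Finset Λ) (E : J → (Fin g → Λ → Fin ρ) → Prop) (r : ℕ) {η β : ℝ}
    (hβ : 0 < β) (hη : 0 ≤ η) (hK : ∀ j ∈ B, (K j).card ≤ r)
    (hE : ∀ j ∈ B, pr (fun u => inS (K j) u ∧ ¬ E j u) ≤ η) (hB : β ≤ ∑ j ∈ B, w j) :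
    ∃ j ∈ B, pr (fun u => inS (K j) u ∧ ∑ i, w i * ind (E i u) < β / (4 * ρ ^ (2 * r)))
      ≤ (1 - 1 / (4 * 2 ^ r)) ^ g + η / (β / (4 * ρ ^ (2 * r))) := by
  have hρ : (1:ℝ) ≤ ρ := by exact_mod_cast NeZero.one_le
  obtain ⟨S, hS⟩ := Finite.exists_max fun S : Finset Λ =>
    (ρ:ℝ) ^ S.card * ∑ j ∈ B, w j * ind (S ⊆ K j)
  set I := B.filter fun j => S ⊆ K j with hI
  have hσ : ∑ j ∈ B, w j * ind (S ⊆ K j) = ∑ j ∈ I, w j := by
    rw [hI, Finset.sum_filter]
    refine Finset.sum_congr rfl fun j _ => ?_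
    by_cases h : S ⊆ K j <;> simp [ind, h]
  have h0 : β ≤ (ρ:ℝ) ^ S.card * ∑ j ∈ I, w j := by
    have := hS ∅
    simp only [Finset.card_empty, pow_zero, one_mul, Finset.empty_subset, ind_pos trivial,
      mul_one, hσ] at this
    linarith
  have hσ0 : 0 < ∑ j ∈ I, w j := by
    by_contra h
    have := mul_nonpos_of_nonneg_of_nonpos (show (0:ℝ) ≤ (ρ:ℝ) ^ S.card by positivity)
      (not_lt.1 h)
    linarith
  obtain ⟨j₀, hj₀⟩ : I.Nonempty := by
    by_contra h
    rw [Finset.not_nonempty_iff_eq_empty.1 h] at hσ0; simp at hσ0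
  obtain ⟨hj₀B, hj₀S⟩ := Finset.mem_filter.1 hj₀
  have hSr : S.card ≤ r := (Finset.card_le_card hj₀S).trans (hK _ hj₀B)
  have h1 := spread (g := g) (ρ := ρ) I w hw (fun j => K j \ S) r
    (fun j hj => (Finset.card_le_card Finset.sdiff_subset).trans (hK j (Finset.mem_filter.1 hj).1))
    hσ0 (fun T => by
      by_cases hT : Disjoint T S
      · have h2 := hS (S ∪ T)
        rw [hσ, Finset.card_union_of_disjoint hT.symm, pow_add, mul_assoc] at h2
        refine le_trans (mul_le_mul_of_nonneg_left ?_ (by positivity))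
          (le_of_mul_le_mul_left h2 (by positivity))
        refine le_trans (Finset.sum_le_sum fun j hj => mul_le_mul_of_nonneg_left (ind_mono
          (q := S ∪ T ⊆ K j) fun h => Finset.union_subset (Finset.mem_filter.1 hj).2
            (h.trans Finset.sdiff_subset)) (hw j)) ?_
        exact Finset.sum_le_sum_of_subset_of_nonneg (Finset.filter_subset _ _)
          fun j _ _ => mul_nonneg (hw j) (ind_nonneg _)
      · rw [Finset.sum_eq_zero fun j _ => by
          rw [ind_neg fun h => hT (Finset.disjoint_of_subset_left h Finset.sdiff_disjoint),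
            mul_zero], mul_zero]
        exact hσ0.le)
  set c := β / (4 * ρ ^ (2 * r)) with hc
  have hc0 : 0 < c := by positivity
  have h2 := markov (f := fun u : Fin g → Λ → Fin ρ =>
    ∑ j ∈ B, w j * ind (inS (K j) u ∧ ¬ E j u))
    (fun u => Finset.sum_nonneg fun j _ => mul_nonneg (hw j) (ind_nonneg _)) hc0
  have h3 : ex (fun u : Fin g → Λ → Fin ρ => ∑ j ∈ B, w j * ind (inS (K j) u ∧ ¬ E j u)) ≤ η := by
    rw [ex_sum]
    calc _ ≤ ∑ j ∈ B, w j * η := Finset.sum_le_sum fun j hj => by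
          rw [ex_mul]; exact mul_le_mul_of_nonneg_left (hE j hj) (hw j)
      _ ≤ η := by
          rw [← Finset.sum_mul]
          exact mul_le_of_le_one_left hη ((Finset.sum_le_sum_of_subset_of_nonneg
            (Finset.subset_univ B) fun j _ _ => hw j).trans hw1)
  refine ⟨j₀, hj₀B, le_trans (pr_or_le fun u hu => ?_) (add_le_add h1
    (h2.trans (div_le_div_of_nonneg_right h3 hc0.le)))⟩
  by_contra hcon
  push Not at hcon
  obtain ⟨h4, h5⟩ := hcon
  have h6 : 2 * c ≤ (∑ j ∈ I, w j) / (2 * ρ ^ r) := by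
    have : β ≤ (ρ:ℝ) ^ r * ∑ j ∈ I, w j :=
      h0.trans (mul_le_mul_of_nonneg_right (pow_le_pow_right₀ hρ hSr) hσ0.le)
    rw [hc, le_div_iff₀ (by positivity), two_mul r, pow_add]
    calc _ = β / ρ ^ r := by field_simp; ring
      _ ≤ _ := by rw [div_le_iff₀ (by positivity)]; linarith
  have h7 : ∑ j ∈ I, w j * ind (inS (K j \ S) u) ≤
      ∑ j ∈ I, w j * ind (E j u) + ∑ j ∈ I, w j * ind (inS (K j) u ∧ ¬ E j u) := by
    rw [← Finset.sum_add_distrib]
    refine Finset.sum_le_sum fun j _ => ?_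
    rw [← mul_add]
    refine mul_le_mul_of_nonneg_left (ind_or_le fun h => ?_) (hw j)
    by_cases hE : E j u
    · exact Or.inl hE
    · refine Or.inr ⟨fun e he => ?_, hE⟩
      by_cases heS : e ∈ S
      · exact hu.1 e (hj₀S heS)
      · exact h e (Finset.mem_sdiff.2 ⟨he, heS⟩)
  have h8 : ∑ j ∈ I, w j * ind (E j u) ≤ ∑ j, w j * ind (E j u) :=
    Finset.sum_le_sum_of_subset_of_nonneg (Finset.subset_univ _)
      fun j _ _ => mul_nonneg (hw j) (ind_nonneg _)
  have h9 : ∑ j ∈ I, w j * ind (inS (K j) u ∧ ¬ E j u) ≤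
      ∑ j ∈ B, w j * ind (inS (K j) u ∧ ¬ E j u) :=
    Finset.sum_le_sum_of_subset_of_nonneg (Finset.filter_subset _ _)
      fun j _ _ => mul_nonneg (hw j) (ind_nonneg _)
  linarith [hu.2]

end

section
variable {A : Type*} [Fintype A] [DecidableEq A] {T g ρ : ℕ} [NeZero ρ]

/-- The sample space. -/
abbrev Om (A : Type*) (T g ρ : ℕ) := Fin g → A × Fin T → Fin ρ

def cert (η : ℕ → ℝ) (i : ℕ) (D : Finset A) (E : Om A T g ρ → Prop) : Prop :=
  ∃ K : Finset (A × Fin T), (∀ e ∈ K, e.1 ∈ D) ∧ K.card ≤ 4 ^ i ∧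
    pr (fun u => inS K u ∧ ¬ E u) ≤ η i

noncomputable def val (k : ℕ) (η : ℕ → ℝ) (D : Finset A) (E : Om A T g ρ → Prop) : ℝ :=
  (∑ i ∈ Finset.range k, ind (cert η i D E)) / k

lemma val_nonneg (k : ℕ) (η : ℕ → ℝ) (D : Finset A) (E : Om A T g ρ → Prop) :
    0 ≤ val k η D E :=
  div_nonneg (Finset.sum_nonneg fun _ _ => ind_nonneg _) (Nat.cast_nonneg _)

lemma val_le_one (k : ℕ) (η : ℕ → ℝ) (D : Finset A) (E : Om A T g ρ → Prop) :
    val k η D E ≤ 1 :=
  div_le_one_of_le₀ ((Finset.sum_le_sum fun _ _ => ind_le_one _).trans (by simp))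
    (Nat.cast_nonneg _)

lemma val_mono (k : ℕ) (η : ℕ → ℝ) (D : Finset A) {E E' : Om A T g ρ → Prop}
    (h : ∀ u, E u → E' u) : val k η D E ≤ val k η D E' :=
  div_le_div_of_nonneg_right (Finset.sum_le_sum fun _ _ => ind_mono fun ⟨K, h1, h2, h3⟩ =>
    ⟨K, h1, h2, (pr_mono fun u hu => ⟨hu.1, fun h' => hu.2 (h u h')⟩).trans h3⟩)
    (Nat.cast_nonneg _)

lemma val_top {k : ℕ} (hk : 0 < k) {η : ℕ → ℝ} (hη : ∀ i, 0 ≤ η i) (D : Finset A)
    {E : Om A T g ρ → Prop} (hE : ∀ u, E u) : val k η D E = 1 := by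
  have : ∀ i, ind (cert η i D E) = 1 := fun i => ind_pos ⟨∅, by simp, by simp, by
    rw [pr_false fun u hu => hu.2 (hE u)]; exact hη i⟩
  have hk' : (k:ℝ) ≠ 0 := by positivity
  simp [val, this, hk']

lemma conflict {k : ℕ} {η : ℕ → ℝ} (hη : Monotone η) (hη0 : 0 ≤ η k)
    (hA : 2 * (ρ ^ 4 ^ k * 4 ^ k) ≤ Fintype.card A)
    (hs : (1 - 1 / (4 * 2 ^ 4 ^ k)) ^ g + (ρ:ℝ) ^ 4 ^ k * η k < 1 / 2)
    {Q : Om A T g ρ → Prop} (hQ : pr Q ≤ 1 / 2) :
    ∃ D : Finset A, Fintype.card A ≤ 2 * D.card ∧ val k η D Q = 0 := by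
  by_contra hcon
  push Not at hcon
  have hρ : (1:ℝ) ≤ ρ := by exact_mod_cast NeZero.one_le
  have hΔ : (0:ℝ) ≤ (1 - 1 / (4 * 2 ^ 4 ^ k)) ^ g := by
    refine pow_nonneg (sub_nonneg.2 ?_) _
    rw [div_le_one (by positivity)]
    linarith [one_le_pow₀ (M₀ := ℝ) (a := 2) (by norm_num) (n := 4 ^ k)]
  have hη1 : η k ≤ (ρ:ℝ) ^ 4 ^ k * η k := le_mul_of_one_le_left hη0 (one_le_pow₀ hρ)
  have key : ∀ D : Finset A, Fintype.card A ≤ 2 * D.card → ∃ K : Finset (A × Fin T),
      (∀ e ∈ K, e.1 ∈ D) ∧ K.Nonempty ∧ K.card ≤ 4 ^ k ∧ pr (fun u => inS K u ∧ ¬ Q u) ≤ η k := by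
    intro D hD
    by_contra h
    refine hcon D hD ?_
    rw [val, Finset.sum_eq_zero, zero_div]
    intro i hi
    refine ind_neg fun ⟨K, h1, h2, h3⟩ => h ⟨K, h1, ?_, h2.trans (Nat.pow_le_pow_right
      (by norm_num) (Finset.mem_range.1 hi).le), h3.trans (hη (Finset.mem_range.1 hi).le)⟩
    rw [Finset.nonempty_iff_ne_empty]
    rintro rfl
    have h4 : pr (fun u => ¬ Q u) ≤ η k :=
      (pr_mono fun u hu => ⟨by simp [inS], hu⟩).trans (h3.trans (hη (Finset.mem_range.1 hi).le))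
    rw [pr_not] at h4
    linarith
  have fam : ∀ s ≤ ρ ^ 4 ^ k, ∃ F : Finset (Finset (A × Fin T)), F.card = s ∧
      (∀ K ∈ F, K.card ≤ 4 ^ k ∧ pr (fun u => inS K u ∧ ¬ Q u) ≤ η k) ∧
      ∀ K ∈ F, ∀ K' ∈ F, K ≠ K' → Disjoint K K' := by
    intro s
    induction s with
    | zero => exact fun _ => ⟨∅, rfl, by simp, by simp⟩
    | succ s ih =>
      intro hs
      obtain ⟨F, h1, h2, h3⟩ := ih (by omega)
      have h4 : ((F.biUnion id).image Prod.fst).card ≤ ρ ^ 4 ^ k * 4 ^ k :=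
        Finset.card_image_le.trans ((Finset.card_biUnion_le_card_mul F id (4 ^ k)
          fun K hK => (h2 K hK).1).trans (Nat.mul_le_mul_right _ (by omega)))
      obtain ⟨K, k1, k2, k3, k4⟩ := key ((F.biUnion id).image Prod.fst)ᶜ (by
        rw [Finset.card_compl]; omega)
      have h5 : ∀ K' ∈ F, Disjoint K K' := fun K' hK' => Finset.disjoint_left.2 fun e he he' =>
        Finset.mem_compl.1 (k1 e he)
          (Finset.mem_image_of_mem _ (Finset.mem_biUnion.2 ⟨K', hK', he'⟩))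
      have h6 : K ∉ F := fun h => k2.ne_empty (disjoint_self.1 (h5 K h))
      refine ⟨insert K F, by rw [Finset.card_insert_of_notMem h6, h1], ?_, ?_⟩
      · intro K' hK'
        rcases Finset.mem_insert.1 hK' with rfl | h
        · exact ⟨k3, k4⟩
        · exact h2 K' h
      · intro K₁ h₁ K₂ h₂ hne
        rcases Finset.mem_insert.1 h₁ with rfl | h₁' <;>
          rcases Finset.mem_insert.1 h₂ with rfl | h₂'
        · exact absurd rfl hne
        · exact h5 _ h₂'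
        · exact (h5 _ h₁').symm
        · exact h3 _ h₁' _ h₂' hne
  obtain ⟨F, h1, h2, h3⟩ := fam _ le_rfl
  have hF : ∑ _K ∈ F, (1:ℝ) = (ρ:ℝ) ^ 4 ^ k := by simp [h1]
  have h4 := spread (g := g) (ρ := ρ) F (fun _ => 1) (fun _ => zero_le_one) (fun K => K) (4 ^ k)
    (fun K hK => (h2 K hK).1) (by rw [hF]; positivity) (fun S => by
      rcases S.eq_empty_or_nonempty with rfl | hS
      · simp [ind]
      by_cases h : ∃ K ∈ F, S ⊆ K
      · obtain ⟨K, hK, hSK⟩ := h
        rw [Finset.sum_eq_single K, hF]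
        · simp only [ind_pos hSK, mul_one]
          exact pow_le_pow_right₀ hρ ((Finset.card_le_card hSK).trans (h2 K hK).1)
        · intro K' hK' hne
          rw [ind_neg, mul_zero]
          intro h
          exact hS.ne_empty (disjoint_self.1 (Finset.disjoint_of_subset_left h
            (Finset.disjoint_of_subset_right hSK (h3 K' hK' K hK hne))))
        · intro h; exact absurd hK h
      · rw [Finset.sum_eq_zero fun K hK => by rw [ind_neg fun h' => h ⟨K, hK, h'⟩, mul_zero],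
          mul_zero, hF]
        positivity)
  have h5 : pr (fun u => ∃ K ∈ F, inS K u ∧ ¬ Q u) ≤ (ρ:ℝ) ^ 4 ^ k * η k := by
    refine (pr_le_sum F (Q := fun K u => inS K u ∧ ¬ Q u) fun u hu => hu).trans ?_
    refine (Finset.sum_le_sum fun K hK => (h2 K hK).2).trans (le_of_eq ?_)
    simp [h1]
  have h6 : pr (fun u => ¬ Q u) ≤ _ := (pr_or_le fun u hu => ?_).trans (add_le_add h4 h5)
  · rw [pr_not] at h6; linarith
  · by_cases h : ∃ K ∈ F, inS K u
    · obtain ⟨K, hK, h⟩ := h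
      exact Or.inr ⟨K, hK, h, hu⟩
    · left
      rw [Finset.sum_eq_zero fun K hK => by
        rw [ind_neg fun h' => h ⟨K, hK, h'⟩, mul_zero], hF]
      positivity

lemma hitting [Nonempty A] {J : Type*} [Fintype J] (w : J → ℝ) (hw : ∀ j, 0 ≤ w j)
    (hw1 : ∑ j, w j ≤ 1) (D : J → Finset A) (hD : ∀ j, Fintype.card A ≤ 2 * (D j).card) (l : ℕ) :
    ∃ L : Finset A, L.card ≤ l ∧ ∑ j, w j * ind (∀ a ∈ L, a ∉ D j) ≤ 1 / 2 ^ l := by
  induction l with
  | zero => exact ⟨∅, le_rfl, by simpa [ind] using hw1⟩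
  | succ l ih =>
    obtain ⟨L, h1, h2⟩ := ih
    have hc : (0:ℝ) < Fintype.card A := by exact_mod_cast Fintype.card_pos
    have h3 : ∑ a : A, ∑ j, w j * ind (∀ b ∈ insert a L, b ∉ D j) ≤ ∑ _a : A, 1 / 2 ^ (l + 1) := by
      rw [Finset.sum_comm]
      calc _ ≤ ∑ j, (Fintype.card A / 2) * (w j * ind (∀ a ∈ L, a ∉ D j)) := by
            refine Finset.sum_le_sum fun j _ => ?_
            have h4 : ∑ a : A, ind (a ∉ D j) ≤ Fintype.card A / 2 := by
              have h5 := pr_eq_card fun a => a ∉ D j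
              rw [pr, ex, div_left_inj' hc.ne'] at h5
              have h6 : (Finset.univ.filter fun a => a ∉ D j) = (D j)ᶜ := by ext; simp
              have h7 : ((D j)ᶜ.card : ℝ) + (D j).card = Fintype.card A := by
                exact_mod_cast Finset.card_compl_add_card (D j)
              have h8 : (Fintype.card A : ℝ) ≤ 2 * (D j).card := by exact_mod_cast hD j
              rw [h5, h6]; linarith
            simp only [Finset.forall_mem_insert, ← ind_mul, mul_left_comm (w j), ← Finset.sum_mul]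
            exact mul_le_mul_of_nonneg_right h4 (mul_nonneg (hw j) (ind_nonneg _))
        _ ≤ _ := by
            rw [← Finset.mul_sum, Finset.sum_const, Finset.card_univ, nsmul_eq_mul, pow_succ]
            calc _ ≤ (Fintype.card A / 2) * (1 / 2 ^ l : ℝ) := by gcongr
              _ = _ := by field_simp
    obtain ⟨a, -, ha⟩ := Finset.exists_le_of_sum_le Finset.univ_nonempty h3
    exact ⟨insert a L, (Finset.card_insert_le _ _).trans (by omega), ha⟩

lemma card_popular {J X : Type*} [Fintype J] [Fintype X] (w : J → ℝ) (hw : ∀ j, 0 ≤ w j)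
    (hw1 : ∑ j, w j ≤ 1) (q : J → Option X) {c : ℝ} (hc : 0 < c) :
    ((Finset.univ.filter fun x : X => c ≤ ∑ j, w j * ind (q j = some x)).card : ℝ) ≤ 1 / c := by
  rw [le_div_iff₀ hc]
  calc _ = ∑ _x ∈ Finset.univ.filter fun x : X => c ≤ ∑ j, w j * ind (q j = some x), c := by simp
    _ ≤ ∑ x ∈ Finset.univ.filter fun x : X => c ≤ ∑ j, w j * ind (q j = some x),
          ∑ j, w j * ind (q j = some x) :=
        Finset.sum_le_sum fun x hx => (Finset.mem_filter.1 hx).2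
    _ ≤ ∑ x, ∑ j, w j * ind (q j = some x) :=
        Finset.sum_le_sum_of_subset_of_nonneg (Finset.subset_univ _) fun x _ _ =>
          Finset.sum_nonneg fun j _ => mul_nonneg (hw j) (ind_nonneg _)
    _ ≤ 1 := by
        rw [Finset.sum_comm]
        refine le_trans (Finset.sum_le_sum fun j _ => ?_) hw1
        rw [← Finset.mul_sum]
        refine mul_le_of_le_one_right (hw j) ?_
        cases h : q j with
        | none => simp [ind]
        | some y =>
          rw [Finset.sum_eq_single y]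
          · exact ind_le_one _
          · intro x _ hx; exact ind_neg fun h' => hx (Option.some.inj h').symm
          · simp

lemma naming_step {J X : Type*} [Fintype J] [Fintype X] (w : J → ℝ) (hw : ∀ j, 0 ≤ w j)
    (hw1 : ∑ j, w j ≤ 1) (D : J → Finset A) (p : J → Om A T g ρ → Option X) (L : Finset A)
    {η : ℕ → ℝ} {i : ℕ} {β : ℝ} (hβ : 0 < β) (hη0 : 0 ≤ η i) (hT : 3 * 4 ^ i ≤ T)
    (hη : η i + (1 - 1 / (4 * 2 ^ 4 ^ i)) ^ g + η i / (β / (4 * ρ ^ (2 * 4 ^ i))) ≤ η (i + 1)) :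
    ∃ N : Finset (Om A T g ρ × X),
      (N.card : ℝ) ≤ L.card * ((g:ℝ) / ρ) ^ (3 * 4 ^ i) / (β / (4 * ρ ^ (2 * 4 ^ i)))
        * Fintype.card (Om A T g ρ) ∧
      ∀ N' : Finset (Om A T g ρ × X), N ⊆ N' → ∀ x : Om A T g ρ → X,
        ∑ j, w j * ind (cert η i (D j) (fun u => p j u = some (x u)) ∧ (∃ a ∈ L, a ∈ D j) ∧
          ¬ cert η (i + 1) (D j) (fun u => p j u = some (x u) ∧ (u, x u) ∈ N')) ≤ β := by
  set c := β / (4 * ρ ^ (2 * 4 ^ i)) with hc
  have hρ : (1:ℝ) ≤ ρ := by exact_mod_cast NeZero.one_le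
  have hc0 : 0 < c := by positivity
  obtain ⟨τ, -, hτ⟩ := Finset.exists_subset_card_eq (s := (Finset.univ : Finset (Fin T)))
    (n := 3 * 4 ^ i) (by simpa using hT)
  have hκ : ∀ a : A, (({a} : Finset A) ×ˢ τ).card = 3 * 4 ^ i := fun a => by simp [hτ]
  have hW0 := pr_eq_card fun u : Om A T g ρ => ∃ a ∈ L, inS ({a} ×ˢ τ) u
  set W := Finset.univ.filter fun u : Om A T g ρ => ∃ a ∈ L, inS ({a} ×ˢ τ) u with hW
  have hWc : (W.card : ℝ) ≤ L.card * ((g:ℝ) / ρ) ^ (3 * 4 ^ i) * Fintype.card (Om A T g ρ) := by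
    have hpos : (0:ℝ) < Fintype.card (Om A T g ρ) := Nat.cast_pos.2 Fintype.card_pos
    rw [← div_le_iff₀ hpos, ← hW0]
    have e1 := pr_le_sum L (P := fun u : Om A T g ρ => ∃ a ∈ L, inS ({a} ×ˢ τ) u)
      (Q := fun a u => inS ({a} ×ˢ τ) u) fun u hu => hu
    have e2 : ∀ a ∈ L, pr (fun u : Om A T g ρ => inS ({a} ×ˢ τ) u) ≤
        ((g:ℝ) / ρ) ^ (3 * 4 ^ i) := fun a _ => by
      have := pr_inS_le (g := g) (ρ := ρ) (({a} : Finset A) ×ˢ τ)
      rwa [hκ] at this
    have e3 := Finset.sum_le_sum e2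
    rw [Finset.sum_const, nsmul_eq_mul] at e3
    exact e1.trans e3
  refine ⟨W.biUnion fun u => (Finset.univ.filter fun x : X =>
    c ≤ ∑ j, w j * ind (p j u = some x)).image fun x => (u, x), ?_, ?_⟩
  · calc _ ≤ ∑ u ∈ W, (1 / c) := by
          refine le_trans (Nat.cast_le.2 Finset.card_biUnion_le) ?_
          push_cast
          exact Finset.sum_le_sum fun u _ => le_trans (Nat.cast_le.2 Finset.card_image_le)
            (card_popular w hw hw1 (fun j => p j u) hc0)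
      _ ≤ _ := by
          rw [Finset.sum_const, nsmul_eq_mul, mul_one_div, div_mul_eq_mul_div]
          exact div_le_div_of_nonneg_right hWc hc0.le
  intro N' hN x
  by_contra hcon
  set B := Finset.univ.filter fun j => cert η i (D j) (fun u => p j u = some (x u)) ∧
    (∃ a ∈ L, a ∈ D j) ∧ ¬ cert η (i + 1) (D j) (fun u => p j u = some (x u) ∧ (u, x u) ∈ N')
    with hB
  have hBs : β ≤ ∑ j ∈ B, w j := by
    refine (not_le.1 hcon).le.trans (le_of_eq ?_)
    rw [hB, Finset.sum_filter]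
    refine Finset.sum_congr rfl fun j _ => ?_
    split_ifs with h
    · rw [ind_pos h, mul_one]
    · rw [ind_neg h, mul_zero]
  have hK : ∀ j, ∃ K : Finset (A × Fin T), j ∈ B → (∀ e ∈ K, e.1 ∈ D j) ∧ K.card ≤ 4 ^ i ∧
      pr (fun u => inS K u ∧ ¬ p j u = some (x u)) ≤ η i := by
    intro j
    by_cases h : j ∈ B
    · obtain ⟨K, hK⟩ := (Finset.mem_filter.1 h).2.1
      exact ⟨K, fun _ => hK⟩
    · exact ⟨∅, fun h' => absurd h' h⟩
  choose K hK using hK
  obtain ⟨j, hj, h1⟩ := bad w hw hw1 B K (fun j u => p j u = some (x u)) (4 ^ i) hβ hη0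
    (fun j hj => (hK j hj).2.1) (fun j hj => (hK j hj).2.2) hBs
  obtain ⟨-, ⟨a, haL, haD⟩, h2⟩ := (Finset.mem_filter.1 hj).2
  refine h2 ⟨K j ∪ {a} ×ˢ τ, fun e he => ?_, ?_, ?_⟩
  · rcases Finset.mem_union.1 he with h | h
    · exact (hK j hj).1 e h
    · rw [Finset.mem_singleton.1 (Finset.mem_product.1 h).1]; exact haD
  · refine (Finset.card_union_le _ _).trans ?_
    have := (hK j hj).2.1
    rw [hκ, pow_succ]; omega
  · refine le_trans (pr_or_le fun u hu => ?_) ((add_le_add (hK j hj).2.2 h1).trans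
      ((add_assoc _ _ _).symm.trans_le hη))
    have h3 : inS (K j) u := fun e he => hu.1 e (Finset.mem_union_left _ he)
    by_cases h4 : p j u = some (x u)
    · refine Or.inr ⟨h3, not_le.1 fun h5 => hu.2 ⟨h4, hN ?_⟩⟩
      refine Finset.mem_biUnion.2 ⟨u, Finset.mem_filter.2 ⟨Finset.mem_univ _, a, haL,
        fun e he => hu.1 e (Finset.mem_union_right _ he)⟩, Finset.mem_image_of_mem _ ?_⟩
      exact Finset.mem_filter.2 ⟨Finset.mem_univ _, h5⟩
    · exact Or.inl ⟨h3, h4⟩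

lemma naming [Nonempty A] {J X : Type*} [Fintype J] [Fintype X] (w : J → ℝ) (hw : ∀ j, 0 ≤ w j)
    (hw1 : ∑ j, w j ≤ 1) (D : J → Finset A) (hD : ∀ j, Fintype.card A ≤ 2 * (D j).card)
    (p : J → Om A T g ρ → Option X) {η : ℕ → ℝ} {k : ℕ} (hk : 0 < k) (hg : 0 < g)
    (hη0 : ∀ i, 0 ≤ η i) (hT : 4 ^ k ≤ T)
    (hη : ∀ i < k, η i + (1 - 1 / (4 * 2 ^ 4 ^ i)) ^ g +
      η i / ((1 / k) / (4 * ρ ^ (2 * 4 ^ i))) ≤ η (i + 1)) :
    ∃ N : Finset (Om A T g ρ × X),
      (N.card : ℝ) ≤ 4 * k ^ 3 * (g:ℝ) ^ 4 ^ k / ρ * Fintype.card (Om A T g ρ) ∧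
      ∀ x : Om A T g ρ → X, ∑ j, w j * (val k η (D j) (fun u => p j u = some (x u)) -
        val k η (D j) (fun u => p j u = some (x u) ∧ (u, x u) ∈ N)) ≤ 3 / k := by
  have hk' : (0:ℝ) < k := by exact_mod_cast hk
  have hρ : (1:ℝ) ≤ ρ := by exact_mod_cast NeZero.one_le
  have hg' : (1:ℝ) ≤ g := by exact_mod_cast hg
  obtain ⟨L, hL1, hL2⟩ := hitting w hw hw1 D hD k
  have h3 : ∀ i : ℕ, i < k → 3 * 4 ^ i ≤ 4 ^ k := fun i hi => by
    have := Nat.pow_le_pow_right (show 0 < 4 by norm_num) (show i + 1 ≤ k from hi)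
    rw [pow_succ] at this; omega
  have step := fun i : Fin k => naming_step w hw hw1 D p L (η := η) (i := i) (β := 1 / k)
    (by positivity) (hη0 i) ((h3 i i.2).trans hT) (hη i i.2)
  choose N hN1 hN2 using step
  refine ⟨Finset.univ.biUnion N, ?_, fun x => ?_⟩
  · refine le_trans (Nat.cast_le.2 Finset.card_biUnion_le) ?_
    push_cast
    calc _ ≤ ∑ _i : Fin k, 4 * k ^ 2 * (g:ℝ) ^ 4 ^ k / ρ * Fintype.card (Om A T g ρ) := by
          refine Finset.sum_le_sum fun i _ => (hN1 i).trans ?_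
          refine mul_le_mul_of_nonneg_right ?_ (Nat.cast_nonneg _)
          have e1 : (L.card : ℝ) ≤ k := by exact_mod_cast hL1
          have e2 : (g:ℝ) ^ (3 * 4 ^ (i:ℕ)) ≤ (g:ℝ) ^ 4 ^ k := pow_le_pow_right₀ hg' (h3 i i.2)
          have e3 : (ρ:ℝ) ≤ (ρ:ℝ) ^ 4 ^ (i:ℕ) := le_self_pow₀ hρ (by positivity)
          calc _ = 4 * (L.card * k) * (g:ℝ) ^ (3 * 4 ^ (i:ℕ)) / (ρ:ℝ) ^ 4 ^ (i:ℕ) := by
                rw [div_pow, show 3 * 4 ^ (i:ℕ) = 2 * 4 ^ (i:ℕ) + 4 ^ (i:ℕ) by ring,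
                  pow_add (ρ:ℝ)]
                field_simp
            _ ≤ _ := by rw [sq]; gcongr
      _ = _ := by simp; ring
  set N' := Finset.univ.biUnion N
  have key : ∀ j, val k η (D j) (fun u => p j u = some (x u)) -
      val k η (D j) (fun u => p j u = some (x u) ∧ (u, x u) ∈ N') ≤
      1 / k + ind (∀ a ∈ L, a ∉ D j) + (1 / k) * ∑ i : Fin k,
        ind (cert η i (D j) (fun u => p j u = some (x u)) ∧ (∃ a ∈ L, a ∈ D j) ∧
          ¬ cert η (i + 1) (D j) (fun u => p j u = some (x u) ∧ (u, x u) ∈ N')) := by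
    intro j
    have hpos : (0:ℝ) ≤ (1 / k) * ∑ i : Fin k,
        ind (cert η i (D j) (fun u => p j u = some (x u)) ∧ (∃ a ∈ L, a ∈ D j) ∧
          ¬ cert η (i + 1) (D j) (fun u => p j u = some (x u) ∧ (u, x u) ∈ N')) :=
      mul_nonneg (by positivity) (Finset.sum_nonneg fun _ _ => ind_nonneg _)
    by_cases h : ∀ a ∈ L, a ∉ D j
    · rw [ind_pos h]
      have := val_le_one k η (D j) (fun u => p j u = some (x u))
      have := val_nonneg k η (D j) (fun u => p j u = some (x u) ∧ (u, x u) ∈ N')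
      have : (0:ℝ) ≤ 1 / k := by positivity
      linarith
    rw [ind_neg h, add_zero, val, val, ← sub_div, one_div_mul_eq_div, ← add_div]
    refine div_le_div_of_nonneg_right ?_ hk'.le
    push Not at h
    rw [← Finset.sum_range (fun i => ind (cert η i (D j) (fun u => p j u = some (x u)) ∧
      (∃ a ∈ L, a ∈ D j) ∧
        ¬ cert η (i + 1) (D j) (fun u => p j u = some (x u) ∧ (u, x u) ∈ N')))]
    set f := fun i => ind (cert η i (D j) (fun u => p j u = some (x u) ∧ (u, x u) ∈ N')) with hf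
    have e1 := Finset.sum_range_succ f k
    have e2 := Finset.sum_range_succ' f k
    have e3 : f k ≤ 1 := ind_le_one _
    have e4 : 0 ≤ f 0 := ind_nonneg _
    have e5 : ∑ i ∈ Finset.range k, ind (cert η i (D j) (fun u => p j u = some (x u))) ≤
        ∑ i ∈ Finset.range k, (f (i + 1) + ind (cert η i (D j) (fun u => p j u = some (x u)) ∧
          (∃ a ∈ L, a ∈ D j) ∧
          ¬ cert η (i + 1) (D j) (fun u => p j u = some (x u) ∧ (u, x u) ∈ N'))) :=
      Finset.sum_le_sum fun i _ => ind_or_le fun h' => by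
        by_cases h2 : cert η (i + 1) (D j) (fun u => p j u = some (x u) ∧ (u, x u) ∈ N')
        · exact Or.inl h2
        · exact Or.inr ⟨h', h, h2⟩
    rw [Finset.sum_add_distrib] at e5
    linarith
  refine (Finset.sum_le_sum fun j _ => mul_le_mul_of_nonneg_left (key j) (hw j)).trans ?_
  simp only [mul_add, Finset.sum_add_distrib, ← Finset.sum_mul, mul_left_comm (w _) (1 / (k:ℝ))]
  rw [← Finset.mul_sum]
  simp only [Finset.mul_sum _ _ (w _)]
  rw [Finset.sum_comm]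
  have e1 : ∑ i : Fin k, ∑ j, w j * ind (cert η i (D j) (fun u => p j u = some (x u)) ∧
      (∃ a ∈ L, a ∈ D j) ∧
        ¬ cert η (i + 1) (D j) (fun u => p j u = some (x u) ∧ (u, x u) ∈ N')) ≤ 1 := by
    refine (Finset.sum_le_sum fun i _ => hN2 i N'
      (Finset.subset_biUnion_of_mem N (Finset.mem_univ i)) x).trans (le_of_eq ?_)
    simp [hk'.ne']
  have e2 : (1:ℝ) / 2 ^ k ≤ 1 / k :=
    one_div_le_one_div_of_le hk' (by exact_mod_cast (Nat.lt_two_pow_self (n := k)).le)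
  have e3 : (∑ j, w j) * (1 / k) ≤ 1 / k := mul_le_of_le_one_left (by positivity) hw1
  have e4 := mul_le_of_le_one_right (show (0:ℝ) ≤ 1 / k by positivity) e1
  have e5 : (3:ℝ) / k = 1 / k + 1 / k + 1 / k := by ring
  linarith

end

end Vale.Agent.P126
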