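import Mathlib

/-! Definitions for the duality problem for covering numbers. -/

namespace Vale.Agent.P126

open scoped Pointwise

/-- Euclidean `n`-space. -/
abbrev Rn (n : ℕ) : Type := EuclideanSpace ℝ (Fin n)

/-- Origin-symmetric convex body: compact, convex, nonempty interior, `K = -K`. -/
def IsSymBody {n : ℕ} (K : Set (Rn n)) : Prop :=
  IsCompact K ∧ Convex ℝ K ∧ (interior K).Nonempty ∧ K = -K

/-- Least number of translates `x + B` whose union contains `A`. -/
noncomputable def covN {n : ℕ} (A B : Set (Rn n)) : ℕ :=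
  sInf {k : ℕ | ∃ T : Finset (Rn n), T.card = k ∧ A ⊆ ⋃ x ∈ T, x +ᵥ B}

/-- The polar body. -/
def polar {n : ℕ} (K : Set (Rn n)) : Set (Rn n) := {y | ∀ x ∈ K, inner ℝ x y ≤ 1}

end Vale.Agent.P126
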