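import Vale.Agent.P126.Matrix
import Vale.Agent.P126.Defs

/-! From the matrix to convex bodies. -/

namespace Vale.Agent.P126

open Classical Filter Topology
open scoped Pointwise

def cubeB (n : ℕ) : Set (Rn n) := {z | ∀ i, |z i| ≤ 1}

lemma norm_le_sum {n : ℕ} (z : Rn n) : ‖z‖ ≤ ∑ i, |z i| := by
  refine le_of_pow_le_pow_left₀ two_ne_zero (Finset.sum_nonneg fun _ _ => abs_nonneg _) ?_
  rw [EuclideanSpace.norm_sq_eq]
  simp only [Real.norm_eq_abs]
  exact Finset.sum_sq_le_sq_sum_of_nonneg fun _ _ => abs_nonneg _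

lemma ball_sub_cube (n : ℕ) : Metric.ball (0 : Rn n) 1 ⊆ cubeB n := fun z hz i =>
  (PiLp.norm_apply_le z i).trans (mem_ball_zero_iff.1 hz).le

lemma cube_body (n : ℕ) : IsSymBody (cubeB n) := by
  refine ⟨Metric.isCompact_of_isClosed_isBounded ?_ ?_, ?_, ⟨0, ?_⟩, ?_⟩
  · simp only [cubeB, Set.ofPred_forall]
    exact isClosed_iInter fun i => isClosed_le (by fun_prop) continuous_const
  · refine (Metric.isBounded_closedBall (x := 0) (r := n)).subset fun z hz => ?_
    rw [mem_closedBall_zero_iff]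
    exact (norm_le_sum z).trans ((Finset.sum_le_sum fun i _ => hz i).trans (by simp))
  · intro x hx y hy a b ha hb hab i
    have h1 := abs_le.1 (hx i)
    have h2 := abs_le.1 (hy i)
    simp only [PiLp.add_apply, PiLp.smul_apply, smul_eq_mul]
    rw [abs_le]; constructor <;> nlinarith [h1.1, h1.2, h2.1, h2.2]
  · exact mem_interior.2 ⟨_, ball_sub_cube n, Metric.isOpen_ball, Metric.mem_ball_self one_pos⟩
  · ext z; simp [cubeB]

lemma inner_eq {n : ℕ} (x y : Rn n) : inner ℝ x y = ∑ i, x i * y i := by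
  simp [PiLp.inner_apply, mul_comm]

lemma polar_cube {n : ℕ} {y : Rn n} (hy : y ∈ polar (cubeB n)) : ∑ i, |y i| ≤ 1 := by
  have := hy (WithLp.toLp 2 fun i => if 0 ≤ y i then 1 else -1) (fun i => by
    simp only; split_ifs <;> simp)
  rw [inner_eq] at this
  refine le_trans (le_of_eq (Finset.sum_congr rfl fun i _ => ?_)) this
  simp only
  split_ifs with h
  · rw [abs_of_nonneg h, one_mul]
  · rw [abs_of_neg (not_le.1 h), neg_one_mul]

lemma exists_cover {n : ℕ} {K : Set (Rn n)} (hK : IsCompact K) :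
    ∃ T : Finset (Rn n), K ⊆ ⋃ x ∈ T, x +ᵥ cubeB n := by
  obtain ⟨T, hT⟩ := hK.elim_finite_subcover (fun x : Rn n => Metric.ball x 1)
    (fun _ => Metric.isOpen_ball) fun z _ => Set.mem_iUnion.2 ⟨z, Metric.mem_ball_self one_pos⟩
  refine ⟨T, hT.trans (Set.iUnion₂_mono fun x _ z hz => ⟨z - x, ball_sub_cube n ?_, by simp⟩)⟩
  rwa [mem_ball_zero_iff, ← dist_eq_norm]

lemma geometry {n : ℕ} {Y : Type*} [Fintype Y] [Nonempty Y] (f : Y → Fin n → ℝ) {a : ℝ}
    (ha : 0 < a) {U : ℕ}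
    (hlow : ∀ S : Finset Y, (∀ x ∈ S, ∀ x' ∈ S, ∀ i, |f x i - f x' i| < 1) → S.card ≤ U)
    (C : Finset (Fin n → ℝ)) (hup : ∀ ν : Fin n → ℝ, ∑ i, |ν i| ≤ 1 → ∃ c ∈ C, ∑ i, |c i| ≤ 2 ∧
      ∀ x, |∑ i, (ν i - c i) * f x i| ≤ 1 / (6 * a)) :
    ∃ K L : Set (Rn n), IsSymBody K ∧ IsSymBody L ∧
      covN (polar L) (a⁻¹ • polar K) ≤ C.card ∧ Fintype.card Y ≤ covN K L * U := by
  let v : Y → Rn n := fun x => WithLp.toLp 2 fun i => 3 * f x i
  set V : Set (Rn n) := Set.range v ∪ -Set.range v with hV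
  have hVf : V.Finite := (Set.finite_range v).union (Set.finite_range v).neg
  have hVn : -V = V := by rw [hV, Set.union_neg, neg_neg, Set.union_comm]
  have hδ : 0 < 1 / (6 * a) := by positivity
  set K := convexHull ℝ V + Metric.closedBall (0 : Rn n) (1 / (6 * a)) with hK
  have hv : ∀ x, v x ∈ K := fun x =>
    ⟨v x, subset_convexHull _ _ (Or.inl ⟨x, rfl⟩), 0, Metric.mem_closedBall_self hδ.le, by simp⟩
  have hKc : IsCompact K := (hVf.isCompact_convexHull ℝ).add (isCompact_closedBall _ _)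
  refine ⟨K, cubeB n, ⟨hKc, (convex_convexHull _ _).add (convex_closedBall _ _), ?_, ?_⟩,
    cube_body n, ?_, ?_⟩
  · obtain ⟨x⟩ := ‹Nonempty Y›
    refine ⟨v x, mem_interior.2 ⟨Metric.ball (v x) (1 / (6 * a)), fun z hz => ?_,
      Metric.isOpen_ball, Metric.mem_ball_self hδ⟩⟩
    refine ⟨v x, subset_convexHull _ _ (Or.inl ⟨x, rfl⟩), z - v x, ?_, by simp⟩
    rw [mem_closedBall_zero_iff, ← dist_eq_norm]; exact le_of_lt hz
  · rw [hK, neg_add_rev, add_comm, ← convexHull_neg, hVn, neg_closedBall, neg_zero]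
  · refine le_trans (Nat.sInf_le ⟨C.image (WithLp.toLp 2), rfl, fun y hy => ?_⟩)
      Finset.card_image_le
    have hy1 := polar_cube hy
    obtain ⟨c, hc, h1, h2⟩ := hup (fun i => y i) hy1
    refine Set.mem_iUnion₂.2 ⟨_, Finset.mem_image_of_mem _ hc, y - WithLp.toLp 2 c,
      ⟨a • (y - WithLp.toLp 2 c), ?_, by simp only; rw [inv_smul_smul₀ ha.ne']⟩, by simp⟩
    set d := y - WithLp.toLp 2 c with hd
    have hd1 : ‖d‖ ≤ 3 := by
      refine (norm_le_sum d).trans ?_
      calc _ ≤ ∑ i, (|y i| + |c i|) := Finset.sum_le_sum fun i _ => by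
            simpa [hd] using abs_sub (y i) (c i)
        _ ≤ 3 := by rw [Finset.sum_add_distrib]; linarith
    have hd2 : ∀ x, |inner ℝ (v x) d| ≤ 1 / (2 * a) := fun x => by
      have e : inner ℝ (v x) d = 3 * ∑ i, (y i - c i) * f x i := by
        rw [inner_eq, Finset.mul_sum]
        refine Finset.sum_congr rfl fun i _ => ?_
        simp only [v, hd, PiLp.sub_apply]; ring
      rw [e, abs_mul, abs_of_pos (show (0:ℝ) < 3 by norm_num)]
      refine (mul_le_mul_of_nonneg_left (h2 x) (by norm_num)).trans (le_of_eq ?_)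
      field_simp; norm_num
    have hd3 : convexHull ℝ V ⊆ {z | inner ℝ z d ≤ 1 / (2 * a)} := by
      refine convexHull_min ?_ (convex_halfSpace_le ⟨fun _ _ => inner_add_left _ _ _,
        fun _ _ => real_inner_smul_left _ _ _⟩ _)
      rintro z (⟨x, rfl⟩ | hz)
      · exact (abs_le.1 (hd2 x)).2
      · obtain ⟨x, hx⟩ := Set.mem_neg.1 hz
        have := (abs_le.1 (hd2 x)).1
        rw [hx, inner_neg_left] at this
        simp only [Set.mem_ofPred_eq]; linarith
    rintro _ ⟨z, hz, w, hw, rfl⟩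
    have e1 : inner ℝ z d ≤ 1 / (2 * a) := hd3 hz
    have e2 : inner ℝ w d ≤ 1 / (2 * a) := by
      refine (real_inner_le_norm w d).trans ((mul_le_mul (mem_closedBall_zero_iff.1 hw) hd1
        (norm_nonneg _) hδ.le).trans (le_of_eq ?_))
      field_simp; norm_num
    simp only
    rw [real_inner_smul_right, inner_add_left]
    refine (mul_le_mul_of_nonneg_left (add_le_add e1 e2) ha.le).trans (le_of_eq ?_)
    field_simp; norm_num
  · obtain ⟨T₀, hT₀⟩ := exists_cover hKc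
    obtain ⟨T, hT, h⟩ := Nat.sInf_mem (s := {k : ℕ | ∃ T : Finset (Rn n), T.card = k ∧
      K ⊆ ⋃ x ∈ T, x +ᵥ cubeB n}) ⟨_, T₀, rfl, hT₀⟩
    rw [covN, ← hT, ← Finset.card_univ]
    refine le_trans (Finset.card_le_card (t := T.biUnion fun t =>
      Finset.univ.filter fun x => v x ∈ t +ᵥ cubeB n) fun x _ => ?_)
      (Finset.card_biUnion_le_card_mul _ _ _ fun t _ => hlow _ fun x hx x' hx' i => ?_)
    · obtain ⟨t, ht, h1⟩ := Set.mem_iUnion₂.1 (h (hv x))
      exact Finset.mem_biUnion.2 ⟨t, ht, Finset.mem_filter.2 ⟨Finset.mem_univ _, h1⟩⟩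
    · obtain ⟨z, hz, e1⟩ := (Finset.mem_filter.1 hx).2
      obtain ⟨z', hz', e2⟩ := (Finset.mem_filter.1 hx').2
      have e3 : t i + z i = 3 * f x i := congrArg (fun w : Rn n => w i) e1
      have e4 : t i + z' i = 3 * f x' i := congrArg (fun w : Rn n => w i) e2
      have e5 := abs_le.1 (hz i)
      have e6 := abs_le.1 (hz' i)
      rw [abs_lt]; constructor <;> linarith [e5.1, e5.2, e6.1, e6.2]

lemma numeric {b : ℝ} (hb : 1 ≤ b) {N s C₁ : ℕ} (hN : 0 < N) (hs : (s:ℝ) ≤ 1 / (4 * b) * N)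
    (hC : 0 < C₁) : ∃ m : ℕ, 0 < m ∧ ∀ P Q : ℕ, P ≤ (N * m) ^ s * C₁ →
      m ^ N ≤ Q * (2 ^ N * m ^ (N / 2)) → b * Real.log P < Real.log Q := by
  have hN' : (1:ℝ) ≤ N := by exact_mod_cast hN
  obtain ⟨m, h1, hm⟩ := (((Real.tendsto_log_atTop.comp tendsto_natCast_atTop_atTop).eventually_gt_atTop
    (4 * (N * Real.log N + b * Real.log C₁ + N * Real.log 2))).and (eventually_gt_atTop 0)).exists
  refine ⟨m, hm, fun P Q hP hQ => ?_⟩
  have hm' : (1:ℝ) ≤ m := by exact_mod_cast hm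
  have hC' : (1:ℝ) ≤ C₁ := by exact_mod_cast hC
  have l1 := Real.log_nonneg hN'
  have l2 := Real.log_nonneg hm'
  have l3 := Real.log_nonneg hC'
  have l4 := Real.log_nonneg (show (1:ℝ) ≤ 2 by norm_num)
  have e1 : Real.log P ≤ s * (Real.log N + Real.log m) + Real.log C₁ := by
    rcases Nat.eq_zero_or_pos P with rfl | hP0
    · simp only [Nat.cast_zero, Real.log_zero]; positivity
    · rw [← Real.log_mul (by positivity) (by positivity), ← Real.log_pow,
        ← Real.log_mul (by positivity) (by positivity)]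
      exact Real.log_le_log (by positivity) (by exact_mod_cast hP)
  have hQ0 : 0 < Q := by
    rcases Nat.eq_zero_or_pos Q with rfl | h
    · have : 0 < m ^ N := by positivity
      omega
    · exact h
  have e2 : N * Real.log m ≤ Real.log Q + (N * Real.log 2 + (N / 2 : ℕ) * Real.log m) := by
    rw [← Real.log_pow, ← Real.log_pow, ← Real.log_pow,
      ← Real.log_mul (by positivity) (by positivity),
      ← Real.log_mul (by positivity) (by positivity)]
    exact Real.log_le_log (by positivity) (by exact_mod_cast hQ)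
  have e3 : ((N / 2 : ℕ) : ℝ) ≤ N / 2 := Nat.cast_div_le
  have e4 : b * s ≤ N / 4 := by
    refine (mul_le_mul_of_nonneg_left hs (by linarith)).trans (le_of_eq ?_)
    field_simp
  have e5 := mul_le_mul_of_nonneg_left e1 (show 0 ≤ b by linarith)
  have e6 := mul_le_mul_of_nonneg_right e4 (add_nonneg l1 l2)
  have e7 := mul_le_mul_of_nonneg_right e3 l2
  have e8 := mul_le_mul_of_nonneg_right hN' l2
  have e9 : 0 ≤ N * Real.log N := by positivity
  simp only [Function.comp] at h1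
  nlinarith

theorem main (a b : ℝ) (ha : 1 ≤ a) (hb : 1 ≤ b) : ∃ n : ℕ, 1 ≤ n ∧ ∃ K L : Set (Rn n),
    IsSymBody K ∧ IsSymBody L ∧
      b * Real.log (covN (polar L) (a⁻¹ • polar K)) < Real.log (covN K L) := by
  obtain ⟨k, hk⟩ := exists_nat_ge (24 * a)
  have hk0 : 0 < k := by exact_mod_cast (show (0:ℝ) < k by linarith)
  obtain ⟨g, ρ, η, hg, hρ, h1, h2, h3, h4, h5⟩ := params hk0 (θ := 1 / (4 * b)) (by positivity)
  have : NeZero ρ := ⟨hρ.ne'⟩
  have : NeZero (2 * (ρ ^ 4 ^ k * 4 ^ k)) := ⟨by positivity⟩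
  set A := Fin (2 * (ρ ^ 4 ^ k * 4 ^ k))
  obtain ⟨s, C₁, hs, hC, hup⟩ := up (A := A) (T := 4 ^ k) hk0 hg h2 le_rfl h3 h5
  obtain ⟨m, hm, hnum⟩ := numeric hb Fintype.card_pos hs hC
  have : NeZero m := ⟨hm.ne'⟩
  obtain ⟨C, hC1, hC2⟩ := hup m hm
  set e := (Fintype.equivFin (Row A (4 ^ k) g ρ m)).symm
  obtain ⟨K, L, hK, hL, e1, e2⟩ := geometry (fun x i => fx k η x (e i)) (a := a) (by linarith)
    (fun S hS => low (A := A) (T := 4 ^ k) hk0 h1 h2 (by simp [A]) h4 S fun x hx x' hx' r => by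
      simpa using hS x hx x' hx' (e.symm r))
    (C.image fun c => c ∘ e) fun ν hν => by
      obtain ⟨c, hc, e3, e4⟩ := hC2 (ν ∘ e.symm) (by
        rw [← e.sum_comp]; simpa using hν)
      refine ⟨c ∘ e, Finset.mem_image_of_mem _ hc, ?_, fun x => ?_⟩
      · rw [← e.sum_comp] at e3; exact e3
      · have := e4 x
        rw [← e.sum_comp] at this
        simp only [Function.comp, Equiv.symm_apply_apply] at this ⊢
        refine this.trans ?_
        rw [div_le_div_iff₀ (by exact_mod_cast hk0) (by positivity)]; linarith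
  refine ⟨_, Fintype.card_pos, K, L, hK, hL, hnum _ _ (e1.trans (Finset.card_image_le.trans hC1)) ?_⟩
  simpa using e2

end Vale.Agent.P126
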