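import Vale.Agent.P126.Core

/-! The matrix of graded agreement values and its two covering estimates. -/

namespace Vale.Agent.P126

open Classical Filter Topology

lemma card_near {Ω X : Type*} [Fintype Ω] [DecidableEq Ω] [Fintype X] [Nonempty X] (x₀ : Ω → X)
    (h : ℕ) (S : Finset (Ω → X))
    (hS : ∀ x ∈ S, (Finset.univ.filter fun u => ¬ x₀ u = x u).card ≤ h) :
    S.card ≤ 2 ^ Fintype.card Ω * Fintype.card X ^ h := by
  have h1 : S ⊆ (Finset.univ.filter fun d : Finset Ω => d.card ≤ h).biUnion fun d =>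
      Fintype.piFinset fun u => if u ∈ d then Finset.univ else {x₀ u} := by
    intro x hx
    refine Finset.mem_biUnion.2 ⟨_, Finset.mem_filter.2 ⟨Finset.mem_univ _, hS x hx⟩, ?_⟩
    refine Fintype.mem_piFinset.2 fun u => ?_
    by_cases hu : x₀ u = x u <;> simp [hu]
  refine (Finset.card_le_card h1).trans ((Finset.card_biUnion_le_card_mul _ _
    (Fintype.card X ^ h) fun d hd => ?_).trans (Nat.mul_le_mul_right _ ?_))
  · rw [Fintype.card_piFinset]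
    simp only [apply_ite Finset.card, Finset.card_univ, Finset.card_singleton]
    rw [Finset.prod_ite_mem, Finset.univ_inter, Finset.prod_const]
    exact Nat.pow_le_pow_right Fintype.card_pos (Finset.mem_filter.1 hd).2
  · rw [← Fintype.card_finset]; exact Finset.card_le_univ _

lemma discretize {R Ty P Y : Type*} [Fintype R] [Fintype Ty] [Nonempty Ty] [Fintype P]
    (row : P → Ty → R) (F : Y → R → ℝ) (hF : ∀ y r, |F y r| ≤ 1) {k : ℕ} (hk : 0 < k) {ε : ℝ}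
    (h : ∀ ν : R → ℝ, ∑ r, |ν r| ≤ 1 → ∃ (n : P) (ty : R → Ty),
      ∀ y, ∑ r, |ν r| * |F y r - F y (row n (ty r))| ≤ ε) :
    ∃ C : Finset (R → ℝ),
      C.card ≤ Fintype.card P * (2 * (k * Fintype.card Ty) + 1) ^ Fintype.card Ty ∧
      ∀ ν : R → ℝ, ∑ r, |ν r| ≤ 1 → ∃ c ∈ C, ∑ r, |c r| ≤ 2 ∧
        ∀ y, |∑ r, (ν r - c r) * F y r| ≤ ε + 1 / k := by
  set G := k * Fintype.card Ty with hG
  have hTy : (0:ℝ) < Fintype.card Ty := by exact_mod_cast Fintype.card_pos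
  have hk' : (1:ℝ) ≤ k := by exact_mod_cast hk
  have hG0 : (0:ℝ) < G := by rw [hG]; push_cast; positivity
  let cf : P × (Ty → ℤ) → R → ℝ := fun z r => ∑ τ, if row z.1 τ = r then (z.2 τ : ℝ) / G else 0
  refine ⟨(Finset.univ ×ˢ Fintype.piFinset fun _ : Ty => Finset.Icc (-(G:ℤ)) G).image cf,
    Finset.card_image_le.trans (le_of_eq ?_), fun ν hν => ?_⟩
  · have : ((G:ℤ) + 1 - -G).toNat = 2 * G + 1 := by omega
    simp only [Finset.card_product, Finset.card_univ, Fintype.card_piFinset, Int.card_Icc, this,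
      Finset.prod_const]
  obtain ⟨n, ty, h1⟩ := h ν hν
  set μ : Ty → ℝ := fun τ => ∑ r, if ty r = τ then ν r else 0 with hμ
  have hμ1 : ∑ τ, |μ τ| ≤ 1 := by
    refine le_trans (Finset.sum_le_sum fun τ _ => Finset.abs_sum_le_sum_abs _ _) ?_
    rw [Finset.sum_comm]
    simpa [apply_ite abs] using hν
  have hμ2 : ∀ τ, |μ τ| ≤ 1 := fun τ =>
    (Finset.single_le_sum (f := fun τ => |μ τ|) (fun _ _ => abs_nonneg _)
      (Finset.mem_univ τ)).trans hμ1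
  have hq : ∀ τ, |μ τ - (⌊G * μ τ⌋ : ℝ) / G| ≤ 1 / G := fun τ => by
    have e1 := Int.floor_le (G * μ τ)
    have e2 := Int.lt_floor_add_one (G * μ τ)
    rw [show μ τ - (⌊G * μ τ⌋ : ℝ) / G = (G * μ τ - ⌊G * μ τ⌋) / G by field_simp, abs_div,
      abs_of_pos hG0, abs_of_nonneg (by linarith)]
    gcongr; linarith
  have hq1 : ∑ τ, |μ τ - (⌊G * μ τ⌋ : ℝ) / G| ≤ 1 / k := by
    refine (Finset.sum_le_sum fun τ _ => hq τ).trans (le_of_eq ?_)
    rw [Finset.sum_const, Finset.card_univ, nsmul_eq_mul, hG]; push_cast; field_simp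
  refine ⟨cf (n, fun τ => ⌊G * μ τ⌋), Finset.mem_image_of_mem _ (Finset.mem_product.2
    ⟨Finset.mem_univ _, Fintype.mem_piFinset.2 fun τ => Finset.mem_Icc.2 ⟨?_, ?_⟩⟩), ?_, ?_⟩
  · rw [Int.le_floor]; push_cast; nlinarith [(abs_le.1 (hμ2 τ)).1]
  · rw [← Int.floor_natCast (R := ℝ) G]
    exact Int.floor_mono (by nlinarith [(abs_le.1 (hμ2 τ)).2])
  · refine le_trans (Finset.sum_le_sum fun r _ => Finset.abs_sum_le_sum_abs _ _) ?_
    rw [Finset.sum_comm]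
    simp only [apply_ite abs, abs_zero, Finset.sum_ite_eq, Finset.mem_univ, if_true]
    calc _ ≤ ∑ τ, (|μ τ| + |μ τ - (⌊G * μ τ⌋ : ℝ) / G|) := Finset.sum_le_sum fun τ _ => by
          have := abs_sub (μ τ) (μ τ - (⌊G * μ τ⌋ : ℝ) / G)
          rwa [sub_sub_cancel] at this
      _ ≤ 2 := by
          rw [Finset.sum_add_distrib]
          have : (1:ℝ) / k ≤ 1 := by rw [div_le_one (by linarith)]; exact hk'
          linarith
  · intro y
    have e1 : ∑ r, cf (n, fun τ => ⌊G * μ τ⌋) r * F y r =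
        ∑ τ, (⌊G * μ τ⌋ : ℝ) / G * F y (row n τ) := by
      simp only [cf, Finset.sum_mul]
      rw [Finset.sum_comm]
      simp only [ite_mul, zero_mul, Finset.sum_ite_eq, Finset.mem_univ, if_true]
    have e2 : ∑ r, ν r * F y (row n (ty r)) = ∑ τ, μ τ * F y (row n τ) := by
      simp only [hμ, Finset.sum_mul]
      rw [Finset.sum_comm]
      simp only [ite_mul, zero_mul, Finset.sum_ite_eq, Finset.mem_univ, if_true]
    have e3 : ∑ r, (ν r - cf (n, fun τ => ⌊G * μ τ⌋) r) * F y r =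
        ∑ r, ν r * (F y r - F y (row n (ty r))) +
          ∑ τ, (μ τ - (⌊G * μ τ⌋ : ℝ) / G) * F y (row n τ) := by
      simp only [sub_mul, mul_sub, Finset.sum_sub_distrib, e1, e2]; ring
    rw [e3]
    refine (abs_add_le _ _).trans (add_le_add ((Finset.abs_sum_le_sum_abs _ _).trans ?_)
      ((Finset.abs_sum_le_sum_abs _ _).trans (le_trans (Finset.sum_le_sum fun τ _ => ?_) hq1)))
    · simpa only [abs_mul] using h1 y
    · rw [abs_mul]; exact mul_le_of_le_one_right (abs_nonneg _) (hF _ _)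

variable {A : Type} [Fintype A] [DecidableEq A] {T g ρ : ℕ} [NeZero ρ]

abbrev Big (A : Type) [Fintype A] := {D : Finset A // Fintype.card A ≤ 2 * D.card}

instance : Nonempty (Big A) := ⟨⟨Finset.univ, by rw [Finset.card_univ]; omega⟩⟩

abbrev Row (A : Type) [Fintype A] (T g ρ m : ℕ) := Big A × (Om A T g ρ → Option (Fin m))

noncomputable def fx (k : ℕ) (η : ℕ → ℝ) {m : ℕ} (x : Om A T g ρ → Fin m) (r : Row A T g ρ m) :
    ℝ := val k η r.1.1 (fun u => r.2 u = some (x u))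

lemma low {k : ℕ} (hk : 0 < k) {η : ℕ → ℝ} (hη : Monotone η) (hη0 : ∀ i, 0 ≤ η i)
    (hA : 2 * (ρ ^ 4 ^ k * 4 ^ k) ≤ Fintype.card A)
    (hs : (1 - 1 / (4 * 2 ^ 4 ^ k)) ^ g + (ρ:ℝ) ^ 4 ^ k * η k < 1 / 2) {m : ℕ} [NeZero m]
    (S : Finset (Om A T g ρ → Fin m))
    (hS : ∀ x ∈ S, ∀ x' ∈ S, ∀ r, |fx k η x r - fx k η x' r| < 1) :
    S.card ≤ 2 ^ Fintype.card (Om A T g ρ) * m ^ (Fintype.card (Om A T g ρ) / 2) := by
  rcases S.eq_empty_or_nonempty with rfl | ⟨x₀, h₀⟩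
  · simp
  have := card_near x₀ (Fintype.card (Om A T g ρ) / 2) S fun x hx => ?_
  · rwa [Fintype.card_fin] at this
  have h1 : ¬ pr (fun u => some (x₀ u) = some (x u)) ≤ 1 / 2 := by
    intro h
    obtain ⟨D, hD, h2⟩ := conflict hη (hη0 k) hA hs h
    have h3 := hS x₀ h₀ x hx (⟨D, hD⟩, fun u => some (x₀ u))
    rw [fx, fx, h2, val_top hk hη0 _ fun u => rfl] at h3
    simp at h3
  have h2 := pr_not fun u => some (x₀ u) = some (x u)
  simp only [Option.some.injEq] at h1 h2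
  have h3 := pr_eq_card fun u => ¬ x₀ u = x u
  have hpos : (0:ℝ) < Fintype.card (Om A T g ρ) := Nat.cast_pos.2 Fintype.card_pos
  rw [eq_div_iff hpos.ne'] at h3
  have h4 : ((Finset.univ.filter fun u => ¬ x₀ u = x u).card : ℝ) * 2 ≤
      Fintype.card (Om A T g ρ) := by
    rw [← h3, h2]; nlinarith [not_le.1 h1]
  rw [Nat.le_div_iff_mul_le two_pos]
  have h5 : (Finset.univ.filter fun u => ¬ x₀ u = x u).card * 2 ≤ Fintype.card (Om A T g ρ) := by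
    exact_mod_cast h4
  convert h5

lemma up [Nonempty A] {η : ℕ → ℝ} {k : ℕ} (hk : 0 < k) (hg : 0 < g)
    (hη0 : ∀ i, 0 ≤ η i) (hT : 4 ^ k ≤ T)
    (hη : ∀ i < k, η i + (1 - 1 / (4 * 2 ^ 4 ^ i)) ^ g +
      η i / ((1 / k) / (4 * ρ ^ (2 * 4 ^ i))) ≤ η (i + 1)) {θ : ℝ}
    (hθ : 4 * k ^ 3 * (g:ℝ) ^ 4 ^ k / ρ ≤ θ) :
    ∃ s C₁ : ℕ, (s:ℝ) ≤ θ * Fintype.card (Om A T g ρ) ∧ 0 < C₁ ∧ ∀ m : ℕ, 0 < m →
      ∃ C : Finset (Row A T g ρ m → ℝ), C.card ≤ (Fintype.card (Om A T g ρ) * m) ^ s * C₁ ∧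
        ∀ ν : Row A T g ρ m → ℝ, ∑ r, |ν r| ≤ 1 → ∃ c ∈ C, ∑ r, |c r| ≤ 2 ∧
          ∀ x, |∑ r, (ν r - c r) * fx k η x r| ≤ 4 / k := by
  have hθ0 : 0 ≤ θ := le_trans (by positivity) hθ
  set s := ⌊θ * Fintype.card (Om A T g ρ)⌋₊ with hs
  refine ⟨s, (2 * (k * Fintype.card (Big A × Finset (Fin s))) + 1) ^
    Fintype.card (Big A × Finset (Fin s)), Nat.floor_le (by positivity), by positivity,
    fun m hm => ?_⟩
  have : NeZero m := ⟨hm.ne'⟩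
  obtain ⟨C, h1, h2⟩ := discretize (R := Row A T g ρ m) (Ty := Big A × Finset (Fin s))
    (P := Fin s → Om A T g ρ × Fin m)
    (fun n τ => (τ.1, fun u => if h : ∃ i ∈ τ.2, (n i).1 = u then some (n h.choose).2 else none))
    (fx k η) (fun x r => by
      rw [fx, abs_of_nonneg (val_nonneg _ _ _ _)]; exact val_le_one _ _ _ _) hk (ε := 3 / k)
    (fun ν hν => by
      obtain ⟨N, hN1, hN2⟩ := naming (fun r => |ν r|) (fun r => abs_nonneg _) hν
        (fun r => r.1.1) (fun r => r.1.2) (fun r => r.2) hk hg hη0 hT hη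
      have hNs : N.card ≤ s := Nat.le_floor
        (hN1.trans (mul_le_mul_of_nonneg_right hθ (Nat.cast_nonneg _)))
      obtain ⟨n, hn⟩ : ∃ n : Fin s → Om A T g ρ × Fin m, ∀ y ∈ N, ∃ i, n i = y :=
        ⟨fun i => if h : i.1 < N.card then N.equivFin.symm ⟨i, h⟩ else Classical.arbitrary _,
          fun y hy => ⟨⟨N.equivFin ⟨y, hy⟩, lt_of_lt_of_le (N.equivFin ⟨y, hy⟩).2 hNs⟩, by simp⟩⟩
      refine ⟨n, fun r => (r.1, Finset.univ.filter fun i => r.2 (n i).1 = some (n i).2),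
        fun x => le_trans (Finset.sum_le_sum fun r _ =>
          mul_le_mul_of_nonneg_left ?_ (abs_nonneg _)) (hN2 x)⟩
      have key : ∀ u, ∀ h : ∃ i ∈ Finset.univ.filter fun i => r.2 (n i).1 = some (n i).2,
          (n i).1 = u, some (n h.choose).2 = r.2 u := fun u h => by
        have := h.choose_spec
        rw [← (Finset.mem_filter.1 this.1).2, this.2]
      simp only [fx]
      rw [abs_of_nonneg (sub_nonneg.2 (val_mono _ _ _ fun u hu => ?_))]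
      · refine sub_le_sub_left (val_mono _ _ _ fun u hu => ?_) _
        obtain ⟨i, hi⟩ := hn _ hu.2
        have h : ∃ i ∈ Finset.univ.filter fun i => r.2 (n i).1 = some (n i).2, (n i).1 = u :=
          ⟨i, Finset.mem_filter.2 ⟨Finset.mem_univ _, by rw [hi]; exact hu.1⟩, by rw [hi]⟩
        rw [dif_pos h, key u h, hu.1]
      · split_ifs at hu with h
        rw [← key u h, hu])
  refine ⟨C, h1.trans (le_of_eq (by simp)), fun ν hν => ?_⟩
  obtain ⟨c, hc, h3, h4⟩ := h2 ν hν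
  exact ⟨c, hc, h3, fun x => (h4 x).trans (le_of_eq (by ring))⟩

lemma params {k : ℕ} (hk : 0 < k) {θ : ℝ} (hθ : 0 < θ) :
    ∃ (g ρ : ℕ) (η : ℕ → ℝ), 0 < g ∧ 0 < ρ ∧ Monotone η ∧ (∀ i, 0 ≤ η i) ∧
      (∀ i < k, η i + (1 - 1 / (4 * 2 ^ 4 ^ i)) ^ g +
        η i / ((1 / k) / (4 * ρ ^ (2 * 4 ^ i))) ≤ η (i + 1)) ∧
      (1 - 1 / (4 * 2 ^ 4 ^ k)) ^ g + (ρ:ℝ) ^ 4 ^ k * η k < 1 / 2 ∧
      4 * k ^ 3 * (g:ℝ) ^ 4 ^ k / ρ ≤ θ := by
  have hk' : (1:ℝ) ≤ k := by exact_mod_cast hk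
  obtain ⟨C, hC⟩ := exists_nat_ge (4 * k ^ 3 / θ)
  have hC0 : (0:ℝ) < C := lt_of_lt_of_le (by positivity) hC
  have hC1 : 0 < C := by exact_mod_cast hC0
  have hq : ∀ i : ℕ, (0:ℝ) ≤ 1 - 1 / (4 * 2 ^ 4 ^ i) := fun i => by
    rw [sub_nonneg, div_le_one (by positivity)]
    linarith [one_le_pow₀ (M₀ := ℝ) (a := 2) (by norm_num) (n := 4 ^ i)]
  set q : ℝ := 1 - 1 / (4 * 2 ^ 4 ^ k) with hq'
  have hq1 : |q| < 1 := by
    rw [abs_of_nonneg (hq k)]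
    have : (0:ℝ) < 1 / (4 * 2 ^ 4 ^ k) := by positivity
    linarith
  have h1 := (tendsto_pow_const_mul_const_pow_of_abs_lt_one (4 ^ k * (4 ^ k * (2 * k + 1)))
    hq1).const_mul (2 * (4 * k + 2) ^ k * (C:ℝ) ^ (4 ^ k * (2 * k + 1)))
  rw [mul_zero] at h1
  obtain ⟨g, h2, hg⟩ := ((h1.eventually (gt_mem_nhds (show (0:ℝ) < 1 / 2 by norm_num))).and
    (eventually_gt_atTop 0)).exists
  have hρ0 : 0 < C * g ^ 4 ^ k := by positivity
  set ρ := C * g ^ 4 ^ k with hρ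
  have hρ1 : (1:ℝ) ≤ ρ := by exact_mod_cast hρ0
  set Y : ℝ := 4 * k * (ρ:ℝ) ^ (2 * 4 ^ k) + 2 with hY
  have hY1 : 1 ≤ Y := by
    have : (0:ℝ) ≤ 4 * k * (ρ:ℝ) ^ (2 * 4 ^ k) := by positivity
    linarith
  have hΔ : 0 ≤ q ^ g := pow_nonneg (hq k) g
  refine ⟨g, ρ, fun i => q ^ g * Y ^ i, hg, hρ0, fun i j hij =>
    mul_le_mul_of_nonneg_left (pow_le_pow_right₀ hY1 hij) hΔ, fun i => by positivity,
    fun i hi => ?_, ?_, ?_⟩
  · have h4 : 4 ^ i ≤ 4 ^ k := Nat.pow_le_pow_right (by norm_num) hi.le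
    have e1 : (1 - 1 / (4 * 2 ^ 4 ^ i) : ℝ) ^ g ≤ q ^ g * Y ^ i := by
      refine le_trans (pow_le_pow_left₀ (hq i) ?_ g) (le_mul_of_one_le_right hΔ (one_le_pow₀ hY1))
      rw [hq']; gcongr; norm_num
    have e2 : q ^ g * Y ^ i / ((1 / k) / (4 * (ρ:ℝ) ^ (2 * 4 ^ i))) ≤
        q ^ g * Y ^ i * (4 * k * (ρ:ℝ) ^ (2 * 4 ^ k)) := by
      rw [show q ^ g * Y ^ i / ((1 / k) / (4 * (ρ:ℝ) ^ (2 * 4 ^ i))) =
        q ^ g * Y ^ i * (4 * k * (ρ:ℝ) ^ (2 * 4 ^ i)) by field_simp]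
      gcongr
    have e3 : q ^ g * Y ^ (i + 1) = q ^ g * Y ^ i * (4 * k * (ρ:ℝ) ^ (2 * 4 ^ k))
        + 2 * (q ^ g * Y ^ i) := by rw [pow_succ]; nth_rewrite 2 [hY]; ring
    simp only
    linarith
  · refine lt_of_le_of_lt ?_ h2
    have e1 : Y ^ k ≤ (4 * k + 2) ^ k * (ρ:ℝ) ^ (4 ^ k * (2 * k)) := by
      rw [show 4 ^ k * (2 * k) = (2 * 4 ^ k) * k by ring, pow_mul, ← mul_pow]
      refine pow_le_pow_left₀ (by linarith) ?_ k
      have := one_le_pow₀ (n := 2 * 4 ^ k) hρ1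
      rw [hY]; linarith
    have e2 : (1:ℝ) ≤ (ρ:ℝ) ^ 4 ^ k * Y ^ k :=
      one_le_mul_of_one_le_of_one_le (one_le_pow₀ hρ1) (one_le_pow₀ hY1)
    have e3 : (ρ:ℝ) ^ 4 ^ k * Y ^ k ≤ (4 * k + 2) ^ k * (C:ℝ) ^ (4 ^ k * (2 * k + 1)) *
        (g:ℝ) ^ (4 ^ k * (4 ^ k * (2 * k + 1))) := by
      refine (mul_le_mul_of_nonneg_left e1 (by positivity)).trans (le_of_eq ?_)
      rw [pow_mul (g:ℝ), mul_assoc, ← mul_pow, show (C:ℝ) * (g:ℝ) ^ 4 ^ k = ρ by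
        rw [hρ]; push_cast; ring, mul_add, mul_one, pow_add]
      ring
    have e4 := mul_le_mul_of_nonneg_left e2 hΔ
    have e5 := mul_le_mul_of_nonneg_left e3 hΔ
    nlinarith
  · have hg' : (0:ℝ) < (g:ℝ) ^ 4 ^ k := by positivity
    rw [div_le_iff₀ hθ] at hC
    rw [div_le_iff₀ (by positivity), hρ]; push_cast
    nlinarith

end Vale.Agent.P126
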