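import Mathlib

/-! Uniform probability on finite types and a spread lemma. -/

namespace Vale.Agent.P126

open Classical

noncomputable def ind (p : Prop) : ℝ := if p then 1 else 0

lemma ind_pos {p : Prop} (h : p) : ind p = 1 := if_pos h
lemma ind_neg {p : Prop} (h : ¬ p) : ind p = 0 := if_neg h
lemma ind_nonneg (p : Prop) : 0 ≤ ind p := by unfold ind; split_ifs <;> norm_num
lemma ind_le_one (p : Prop) : ind p ≤ 1 := by unfold ind; split_ifs <;> norm_num
lemma ind_mono {p q : Prop} (h : p → q) : ind p ≤ ind q := by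
  by_cases hp : p
  · rw [ind_pos hp, ind_pos (h hp)]
  · rw [ind_neg hp]; exact ind_nonneg q
lemma ind_congr {p q : Prop} (h : p ↔ q) : ind p = ind q := by rw [propext h]
lemma ind_or_le {p q r : Prop} (h : p → q ∨ r) : ind p ≤ ind q + ind r := by
  by_cases hp : p
  · rw [ind_pos hp]
    rcases h hp with h | h
    · rw [ind_pos h]; linarith [ind_nonneg r]
    · rw [ind_pos h]; linarith [ind_nonneg q]
  · rw [ind_neg hp]; linarith [ind_nonneg q, ind_nonneg r]
lemma ind_mul (p q : Prop) : ind p * ind q = ind (p ∧ q) := by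
  by_cases hp : p <;> by_cases hq : q <;> simp [ind, hp, hq]
lemma ind_le_sum {ι : Type*} (s : Finset ι) {p : Prop} {q : ι → Prop} (h : p → ∃ i ∈ s, q i) :
    ind p ≤ ∑ i ∈ s, ind (q i) := by
  by_cases hp : p
  · obtain ⟨i, hi, hq⟩ := h hp
    have := Finset.single_le_sum (f := fun i => ind (q i)) (fun _ _ => ind_nonneg _) hi
    rw [ind_pos hq] at this
    rwa [ind_pos hp]
  · rw [ind_neg hp]; exact Finset.sum_nonneg fun _ _ => ind_nonneg _

variable {X : Type*} [Fintype X]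

noncomputable def ex (f : X → ℝ) : ℝ := (∑ x, f x) / Fintype.card X

noncomputable def pr (P : X → Prop) : ℝ := ex fun x => ind (P x)

lemma ex_mono {f g : X → ℝ} (h : ∀ x, f x ≤ g x) : ex f ≤ ex g :=
  div_le_div_of_nonneg_right (Finset.sum_le_sum fun x _ => h x) (Nat.cast_nonneg _)

lemma ex_add (f g : X → ℝ) : ex (fun x => f x + g x) = ex f + ex g := by
  simp only [ex, Finset.sum_add_distrib, add_div]

lemma ex_mul (c : ℝ) (f : X → ℝ) : ex (fun x => c * f x) = c * ex f := by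
  simp only [ex, ← Finset.mul_sum, mul_div_assoc]

lemma ex_sum {ι : Type*} (s : Finset ι) (f : ι → X → ℝ) :
    ex (fun x => ∑ i ∈ s, f i x) = ∑ i ∈ s, ex (f i) := by
  simp only [ex, ← Finset.sum_div]; rw [Finset.sum_comm]

lemma ex_const [Nonempty X] (c : ℝ) : ex (fun _ : X => c) = c := by
  have : (Fintype.card X : ℝ) ≠ 0 := by exact_mod_cast Fintype.card_ne_zero
  simp only [ex, Finset.sum_const, Finset.card_univ, nsmul_eq_mul]; field_simp

lemma ex_nonneg {f : X → ℝ} (h : ∀ x, 0 ≤ f x) : 0 ≤ ex f :=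
  div_nonneg (Finset.sum_nonneg fun x _ => h x) (Nat.cast_nonneg _)

lemma pr_nonneg (P : X → Prop) : 0 ≤ pr P := ex_nonneg fun _ => ind_nonneg _

lemma pr_mono {P Q : X → Prop} (h : ∀ x, P x → Q x) : pr P ≤ pr Q := ex_mono fun x => ind_mono (h x)

lemma pr_or_le {P Q R : X → Prop} (h : ∀ x, P x → Q x ∨ R x) : pr P ≤ pr Q + pr R := by
  rw [pr, pr, pr, ← ex_add]; exact ex_mono fun x => ind_or_le (h x)

lemma pr_le_sum {ι : Type*} (s : Finset ι) {P : X → Prop} {Q : ι → X → Prop}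
    (h : ∀ x, P x → ∃ i ∈ s, Q i x) : pr P ≤ ∑ i ∈ s, pr (Q i) := by
  simp only [pr, ← ex_sum]; exact ex_mono fun x => ind_le_sum s (h x)

lemma pr_true [Nonempty X] : pr (fun _ : X => True) = 1 := by
  simp only [pr, ind_pos trivial, ex_const]

lemma pr_false {P : X → Prop} (h : ∀ x, ¬ P x) : pr P = 0 := by
  simp [pr, ex, ind_neg (h _)]

lemma pr_not [Nonempty X] (P : X → Prop) : pr (fun x => ¬ P x) = 1 - pr P := by
  have : pr (fun x => ¬ P x) + pr P = 1 := by
    rw [pr, pr, ← ex_add, ← ex_const (X := X) 1]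
    congr 1; funext x
    by_cases h : P x <;> simp [ind, h]
  linarith

lemma markov {f : X → ℝ} (hf : ∀ x, 0 ≤ f x) {c : ℝ} (hc : 0 < c) :
    pr (fun x => c ≤ f x) ≤ ex f / c := by
  rw [div_eq_inv_mul, ← ex_mul]
  refine ex_mono fun x => ?_
  by_cases h : c ≤ f x
  · rw [ind_pos h, ← div_eq_inv_mul, le_div_iff₀ hc, one_mul]; exact h
  · rw [ind_neg h]; exact mul_nonneg (inv_nonneg.2 hc.le) (hf x)

lemma pr_eq_card (P : X → Prop) [DecidablePred P] :
    pr P = ((Finset.univ.filter P).card : ℝ) / Fintype.card X := by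
  rw [pr, ex, Finset.card_filter]; push_cast
  congr 1
  refine Finset.sum_congr rfl fun x _ => ?_
  by_cases h : P x <;> simp [ind, h]

lemma ex_prod {I Y : Type*} [Fintype I] [DecidableEq I] [Fintype Y] (h : I → Y → ℝ) :
    ex (fun z : I → Y => ∏ e, h e (z e)) = ∏ e, ex (h e) := by
  simp only [ex, Finset.prod_div_distrib, Finset.prod_univ_sum, Fintype.piFinset_univ]
  simp

lemma pr_cyl {I Y : Type*} [Fintype I] [DecidableEq I] [Fintype Y] [Nonempty Y] (K : Finset I)
    (G : Y → Prop) : pr (fun z : I → Y => ∀ e ∈ K, G (z e)) = pr G ^ K.card := by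
  have h1 : ∀ z : I → Y, ind (∀ e ∈ K, G (z e)) =
      ∏ e, (fun e y => if e ∈ K then ind (G y) else 1) e (z e) := by
    intro z
    by_cases h : ∀ e ∈ K, G (z e)
    · rw [ind_pos h, Finset.prod_eq_one]
      intro e _
      by_cases he : e ∈ K
      · simp only [if_pos he, ind_pos (h e he)]
      · simp only [if_neg he]
    · rw [ind_neg h]
      push Not at h
      obtain ⟨e, he, hG⟩ := h
      exact (Finset.prod_eq_zero (Finset.mem_univ e) (by simp only [if_pos he, ind_neg hG])).symm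
  simp only [pr, h1]
  rw [ex_prod (fun e y => if e ∈ K then ind (G y) else 1)]
  have h2 : ∀ e, ex (fun y => if e ∈ K then ind (G y) else 1) =
      if e ∈ K then ex (fun y => ind (G y)) else 1 := by
    intro e
    by_cases he : e ∈ K
    · simp only [if_pos he]
    · simp only [if_neg he, ex_const]
  simp only [h2]
  rw [Finset.prod_ite_mem, Finset.univ_inter, Finset.prod_const]

lemma pr_zero {ρ : ℕ} [NeZero ρ] : pr (fun v : Fin ρ => v = 0) = 1 / ρ := by
  rw [pr_eq_card]; simp [Finset.filter_eq']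

variable {Λ : Type*} [Fintype Λ] [DecidableEq Λ]

lemma spread_one {ρ : ℕ} [NeZero ρ] {J : Type*} (I : Finset J) (w : J → ℝ) (hw : ∀ j, 0 ≤ w j)
    (A : J → Finset Λ) (r : ℕ) (hA : ∀ j ∈ I, (A j).card ≤ r) (hσ : 0 < ∑ j ∈ I, w j)
    (hs : ∀ T : Finset Λ, (ρ:ℝ) ^ T.card * ∑ j ∈ I, w j * ind (T ⊆ A j) ≤ ∑ j ∈ I, w j) :
    pr (fun z : Λ → Fin ρ => ∑ j ∈ I, w j * ind (∀ e ∈ A j, z e = 0)
      < (∑ j ∈ I, w j) / (2 * ρ ^ r)) ≤ 1 - 1 / (4 * 2 ^ r) := by
  set σ := ∑ j ∈ I, w j with hσ'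
  have hρ : (1:ℝ) ≤ ρ := by exact_mod_cast NeZero.one_le
  have hρ0 : (ρ:ℝ) ≠ 0 := by positivity
  set Y : (Λ → Fin ρ) → ℝ := fun z =>
    ∑ j ∈ I, w j * ρ ^ (A j).card * ind (∀ e ∈ A j, z e = 0) with hY
  have hc : ∀ K : Finset Λ, ex (fun z : Λ → Fin ρ => ind (∀ e ∈ K, z e = 0)) =
      (1 / ρ) ^ K.card := fun K => by
    have := pr_cyl K (fun v : Fin ρ => v = 0)
    rwa [pr_zero] at this
  have h1 : ex Y = σ := by
    rw [hY, ex_sum]
    refine Finset.sum_congr rfl fun j _ => ?_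
    rw [ex_mul, hc, mul_assoc, ← mul_pow]; simp [hρ0]
  have h2 : ex (fun z => Y z ^ 2) ≤ 2 ^ r * σ ^ 2 := by
    have e1 : ∀ z, Y z ^ 2 = ∑ j ∈ I, ∑ i ∈ I, (w j * w i * ρ ^ ((A j).card + (A i).card)) *
        ind (∀ e ∈ A j ∪ A i, z e = 0) := by
      intro z
      rw [sq, hY, Finset.sum_mul_sum]
      refine Finset.sum_congr rfl fun j _ => Finset.sum_congr rfl fun i _ => ?_
      rw [ind_congr (Finset.forall_mem_union), ← ind_mul, pow_add]; ring
    simp only [e1, ex_sum, ex_mul, hc]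
    calc _ ≤ ∑ j ∈ I, w j * (2 ^ r * σ) := by
          refine Finset.sum_le_sum fun j hj => ?_
          calc _ ≤ ∑ i ∈ I, w j * ∑ T ∈ (A j).powerset,
                (ρ:ℝ) ^ T.card * (w i * ind (T ⊆ A i)) := by
                refine Finset.sum_le_sum fun i _ => ?_
                have e2 : (ρ:ℝ) ^ ((A j).card + (A i).card) * (1 / ρ) ^ (A j ∪ A i).card
                    = ρ ^ (A j ∩ A i).card := by
                  rw [← Finset.card_union_add_card_inter, pow_add, mul_right_comm, ← mul_pow]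
                  simp [hρ0]
                rw [mul_assoc, e2, mul_assoc]
                refine mul_le_mul_of_nonneg_left ?_ (hw j)
                have := Finset.single_le_sum (f := fun T : Finset Λ =>
                  (ρ:ℝ) ^ T.card * (w i * ind (T ⊆ A i)))
                  (fun T _ => mul_nonneg (by positivity) (mul_nonneg (hw i) (ind_nonneg _)))
                  (Finset.mem_powerset.2 (Finset.inter_subset_left (s₁ := A j) (s₂ := A i)))
                rw [ind_pos Finset.inter_subset_right] at this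
                linarith
            _ = w j * ∑ T ∈ (A j).powerset,
                (ρ:ℝ) ^ T.card * ∑ i ∈ I, w i * ind (T ⊆ A i) := by
                rw [← Finset.mul_sum, Finset.sum_comm]; simp only [Finset.mul_sum]
            _ ≤ _ := by
                refine mul_le_mul_of_nonneg_left ((Finset.sum_le_sum fun T _ => hs T).trans ?_)
                  (hw j)
                rw [Finset.sum_const, Finset.card_powerset, nsmul_eq_mul]
                push_cast
                gcongr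
                · norm_num
                · exact hA j hj
      _ = _ := by rw [← Finset.sum_mul]; ring
  have h3 : ex Y ≤ ex (fun z => σ / 2 + ((1 / (4 * 2 ^ r * σ)) * Y z ^ 2
      + (2 ^ r * σ) * ind (σ / 2 ≤ Y z))) := by
    refine ex_mono fun z => ?_
    have hc0 : (0:ℝ) < 2 ^ r * σ := by positivity
    by_cases h : σ / 2 ≤ Y z
    · rw [ind_pos h, mul_one]
      have : Y z ≤ 1 / (4 * 2 ^ r * σ) * Y z ^ 2 + 2 ^ r * σ := by
        rw [mul_assoc, one_div_mul_eq_div, div_add' _ _ _ (by positivity), le_div_iff₀ (by positivity)]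
        nlinarith [sq_nonneg (Y z - 2 * (2 ^ r * σ))]
      linarith
    · rw [ind_neg h]
      have : 0 ≤ 1 / (4 * 2 ^ r * σ) * Y z ^ 2 := by positivity
      linarith
  rw [ex_add, ex_add, ex_mul, ex_mul, ex_const, h1] at h3
  have h4 : 1 / (4 * 2 ^ r * σ) * ex (fun z => Y z ^ 2) ≤ σ / 4 := by
    refine (mul_le_mul_of_nonneg_left h2 (by positivity)).trans (le_of_eq ?_)
    field_simp
  have h5 : 1 / (4 * 2 ^ r) ≤ pr (fun z => σ / 2 ≤ Y z) := by
    rw [div_le_iff₀ (by positivity), pr]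
    nlinarith
  refine le_trans (pr_mono (Q := fun z => ¬ (σ / 2 ≤ Y z)) fun z hz h => ?_)
    (by rw [pr_not]; linarith)
  rw [lt_div_iff₀ (by positivity)] at hz
  have : Y z ≤ (∑ j ∈ I, w j * ind (∀ e ∈ A j, z e = 0)) * ρ ^ r := by
    rw [hY, Finset.sum_mul]
    refine Finset.sum_le_sum fun j hj => ?_
    rw [mul_right_comm]
    exact mul_le_mul_of_nonneg_left (pow_le_pow_right₀ hρ (hA j hj))
      (mul_nonneg (hw j) (ind_nonneg _))
  linarith

/-- `u` lies in the star of `K`. -/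
def inS {g ρ : ℕ} [NeZero ρ] (K : Finset Λ) (u : Fin g → Λ → Fin ρ) : Prop :=
  ∀ e ∈ K, ∃ c, u c e = 0

lemma spread {g ρ : ℕ} [NeZero ρ] {J : Type*} (I : Finset J) (w : J → ℝ) (hw : ∀ j, 0 ≤ w j)
    (A : J → Finset Λ) (r : ℕ) (hA : ∀ j ∈ I, (A j).card ≤ r) (hσ : 0 < ∑ j ∈ I, w j)
    (hs : ∀ T : Finset Λ, (ρ:ℝ) ^ T.card * ∑ j ∈ I, w j * ind (T ⊆ A j) ≤ ∑ j ∈ I, w j) :
    pr (fun u : Fin g → Λ → Fin ρ => ∑ j ∈ I, w j * ind (inS (A j) u)
      < (∑ j ∈ I, w j) / (2 * ρ ^ r)) ≤ (1 - 1 / (4 * 2 ^ r)) ^ g := by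
  have h1 := pr_cyl (Finset.univ : Finset (Fin g)) (fun z : Λ → Fin ρ =>
    ∑ j ∈ I, w j * ind (∀ e ∈ A j, z e = 0) < (∑ j ∈ I, w j) / (2 * ρ ^ r))
  rw [Finset.card_univ, Fintype.card_fin] at h1
  refine le_trans (pr_mono fun u hu c _ => lt_of_le_of_lt ?_ hu) (h1.le.trans ?_)
  · exact Finset.sum_le_sum fun j _ => mul_le_mul_of_nonneg_left
      (ind_mono fun h e he => ⟨c, h e he⟩) (hw j)
  · exact pow_le_pow_left₀ (pr_nonneg _) (spread_one I w hw A r hA hσ hs) g

lemma pr_inS_le {g ρ : ℕ} [NeZero ρ] (K : Finset Λ) :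
    pr (fun u : Fin g → Λ → Fin ρ => inS K u) ≤ ((g:ℝ) / ρ) ^ K.card := by
  have h1 := pr_cyl K (fun v : Fin g → Fin ρ => ∃ c, v c = 0)
  have h2 : pr (fun v : Fin g → Fin ρ => ∃ c, v c = 0) ≤ g / ρ := by
    refine (pr_le_sum Finset.univ (Q := fun c v => ∀ e ∈ ({c} : Finset (Fin g)), v e = 0)
      fun v ⟨c, hc⟩ => ⟨c, Finset.mem_univ _, by simpa using hc⟩).trans (le_of_eq ?_)
    simp only [pr_cyl _ (fun v : Fin ρ => v = 0), pr_zero]
    simp [div_eq_mul_inv]
  have h3 : pr (fun u : Fin g → Λ → Fin ρ => inS K u) =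
      pr (fun z : Λ → Fin g → Fin ρ => ∀ e ∈ K, ∃ c, z e c = 0) := by
    simp only [pr, ex]
    rw [Fintype.card_congr (Equiv.piComm fun (_ : Fin g) (_ : Λ) => Fin ρ),
      ← (Equiv.piComm fun (_ : Fin g) (_ : Λ) => Fin ρ).sum_comp]
    rfl
  rw [h3, h1]
  exact pow_le_pow_left₀ (pr_nonneg _) h2 _

end Vale.Agent.P126
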